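import Mathlib

/-!
P243, capture lemma, step T0: the one-dimensional Brunn-Minkowski inequality for intervals.
-/

namespace Vale.Agent.Lib.P243.Cap

open MeasureTheory Set

/-- a bounded convex nonempty subset of the line lies between the open and the closed interval
spanned by its infimum and supremum -/
theorem convex_sandwich {I : Set ℝ} (hI : Convex ℝ I) (nI : I.Nonempty)
    (bI : Bornology.IsBounded I) :
    Ioo (sInf I) (sSup I) ⊆ I ∧ I ⊆ Icc (sInf I) (sSup I) := by
  have hbb : BddBelow I := bI.bddBelow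
  have hba : BddAbove I := bI.bddAbove
  constructor
  · intro x hx
    obtain ⟨u, hu, hux⟩ := (csInf_lt_iff hbb nI).1 hx.1
    obtain ⟨v, hv, hxv⟩ := (lt_csSup_iff hba nI).1 hx.2
    exact hI.ordConnected.out hu hv ⟨hux.le, hxv.le⟩
  · intro x hx
    exact ⟨csInf_le hbb hx, le_csSup hba hx⟩

/-- If `D` contains all combinations `(1-l) a + l b`, `a ∈ I`, `b ∈ J`, of two nonempty bounded convex
subsets of the line, then `|D| ≥ (1-l)|I| + l|J|`. -/
theorem interval_bm {I J D : Set ℝ} (hI : Convex ℝ I) (hJ : Convex ℝ J) (nI : I.Nonempty)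
    (nJ : J.Nonempty) (bI : Bornology.IsBounded I) (bJ : Bornology.IsBounded J)
    {l : ℝ} (hl0 : 0 ≤ l) (hl1 : l ≤ 1)
    (h : ∀ a ∈ I, ∀ b ∈ J, (1 - l) * a + l * b ∈ D) :
    ENNReal.ofReal (1 - l) * volume I + ENNReal.ofReal l * volume J ≤ volume D := by
  obtain ⟨hI1, hI2⟩ := convex_sandwich hI nI bI
  obtain ⟨hJ1, hJ2⟩ := convex_sandwich hJ nJ bJ
  set a0 := sInf I
  set a1 := sSup I
  set b0 := sInf J
  set b1 := sSup J
  have hl' : 0 ≤ 1 - l := by linarith
  have ha : a0 ≤ a1 := by
    obtain ⟨x, hx⟩ := nI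
    exact (hI2 hx).1.trans (hI2 hx).2
  have hb : b0 ≤ b1 := by
    obtain ⟨x, hx⟩ := nJ
    exact (hJ2 hx).1.trans (hJ2 hx).2
  have vI : volume I ≤ ENNReal.ofReal (a1 - a0) := by
    rw [← Real.volume_Icc]; exact measure_mono hI2
  have vJ : volume J ≤ ENNReal.ofReal (b1 - b0) := by
    rw [← Real.volume_Icc]; exact measure_mono hJ2
  have hsub : Ioo ((1 - l) * a0 + l * b0) ((1 - l) * a1 + l * b1) ⊆ D := by
    intro x hx
    -- parametrise
    set lo := (1 - l) * a0 + l * b0 with hlo
    set hi := (1 - l) * a1 + l * b1 with hhi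
    have hlt : lo < hi := hx.1.trans hx.2
    set t := (x - lo) / (hi - lo) with ht
    have hd : 0 < hi - lo := by linarith
    have ht0 : 0 < t := div_pos (by linarith [hx.1]) hd
    have ht1 : t < 1 := by
      rw [ht, div_lt_one hd]; linarith [hx.2]
    have hxt : x = lo + t * (hi - lo) := by
      rw [ht]; field_simp; ring
    -- the points
    have exA : ∃ u ∈ I, (1 - l) * u = (1 - l) * (a0 + t * (a1 - a0)) := by
      rcases ha.lt_or_eq with hlt' | heq
      · refine ⟨a0 + t * (a1 - a0), hI1 ⟨?_, ?_⟩, rfl⟩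
        · nlinarith
        · nlinarith
      · obtain ⟨u, hu⟩ := nI
        refine ⟨u, hu, ?_⟩
        have h1 := (hI2 hu).1
        have h2 := (hI2 hu).2
        have : u = a0 := le_antisymm (by linarith) h1
        rw [this, ← heq]; ring
    have exB : ∃ v ∈ J, l * v = l * (b0 + t * (b1 - b0)) := by
      rcases hb.lt_or_eq with hlt' | heq
      · refine ⟨b0 + t * (b1 - b0), hJ1 ⟨?_, ?_⟩, rfl⟩
        · nlinarith
        · nlinarith
      · obtain ⟨u, hu⟩ := nJ
        refine ⟨u, hu, ?_⟩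
        have h1 := (hJ2 hu).1
        have h2 := (hJ2 hu).2
        have : u = b0 := le_antisymm (by linarith) h1
        rw [this, ← heq]; ring
    obtain ⟨u, hu, hu'⟩ := exA
    obtain ⟨v, hv, hv'⟩ := exB
    have := h u hu v hv
    rw [hu', hv'] at this
    have e : x = (1 - l) * (a0 + t * (a1 - a0)) + l * (b0 + t * (b1 - b0)) := by
      rw [hxt, hlo, hhi]; ring
    rw [e]; exact this
  calc ENNReal.ofReal (1 - l) * volume I + ENNReal.ofReal l * volume J
      ≤ ENNReal.ofReal (1 - l) * ENNReal.ofReal (a1 - a0) +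
          ENNReal.ofReal l * ENNReal.ofReal (b1 - b0) := by gcongr
    _ = ENNReal.ofReal (((1 - l) * a1 + l * b1) - ((1 - l) * a0 + l * b0)) := by
        rw [← ENNReal.ofReal_mul hl', ← ENNReal.ofReal_mul hl0,
          ← ENNReal.ofReal_add (mul_nonneg hl' (by linarith)) (mul_nonneg hl0 (by linarith))]
        congr 1; ring
    _ = volume (Ioo ((1 - l) * a0 + l * b0) ((1 - l) * a1 + l * b1)) := by
        rw [Real.volume_Ioo]
    _ ≤ volume D := measure_mono hsub

end Vale.Agent.Lib.P243.Cap
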