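import Mathlib

/-!
P243, capture lemma, step T1a: Fubini plus an affine change of variable for planar sets, and the
projection of a planar convex set to the first coordinate.
-/

namespace Vale.Agent.Lib.P243.Cap

open MeasureTheory Set

/-- The vertical section of a planar set. -/
def sec (S : Set (ℝ × ℝ)) (x : ℝ) : Set ℝ := {y | (x, y) ∈ S}

theorem map_affine_volume (a w : ℝ) (hw : 0 < w) :
    Measure.map (fun θ : ℝ => a + θ * w) volume = ENNReal.ofReal w⁻¹ • (volume : Measure ℝ) := by
  have h1 : (fun θ : ℝ => a + θ * w) = (fun x => a + x) ∘ (fun θ => θ * w) := rfl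
  rw [h1, ← Measure.map_map (by fun_prop) (by fun_prop), Real.map_volume_mul_right hw.ne',
    Measure.map_smul, map_add_left_eq_self, abs_of_pos (inv_pos.2 hw)]

theorem lintegral_affine (g : ℝ → ENNReal) (hg : Measurable g) (a w : ℝ) (hw : 0 < w) :
    ∫⁻ x in Ioo a (a + w), g x = ENNReal.ofReal w * ∫⁻ θ in Ioo (0 : ℝ) 1, g (a + θ * w) := by
  have hF : Measurable ((Ioo a (a + w)).indicator g) := hg.indicator measurableSet_Ioo
  have h1 := lintegral_map (μ := (volume : Measure ℝ)) hF
    (by fun_prop : Measurable fun θ : ℝ => a + θ * w)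
  rw [map_affine_volume a w hw, lintegral_smul_measure, lintegral_indicator measurableSet_Ioo] at h1
  have h2 : (fun θ : ℝ => (Ioo a (a + w)).indicator g (a + θ * w)) =
      (Ioo (0 : ℝ) 1).indicator (fun θ => g (a + θ * w)) := by
    funext θ
    by_cases hθ : θ ∈ Ioo (0 : ℝ) 1
    · have : a + θ * w ∈ Ioo a (a + w) := by
        constructor
        · nlinarith [hθ.1]
        · nlinarith [hθ.2]
      rw [indicator_of_mem this, indicator_of_mem hθ]
    · have : a + θ * w ∉ Ioo a (a + w) := by
        intro hc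
        apply hθ
        constructor
        · by_contra hneg
          push Not at hneg
          nlinarith [hc.1]
        · by_contra hneg
          push Not at hneg
          nlinarith [hc.2]
      rw [indicator_of_notMem this, indicator_of_notMem hθ]
  rw [h2, lintegral_indicator measurableSet_Ioo] at h1
  rw [← h1, smul_eq_mul, ← mul_assoc, ← ENNReal.ofReal_mul hw.le, mul_inv_cancel₀ hw.ne',
    ENNReal.ofReal_one, one_mul]

theorem measurable_vol_sec {S : Set (ℝ × ℝ)} (hS : MeasurableSet S) :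
    Measurable fun x : ℝ => volume (sec S x) :=
  measurable_measure_prodMk_left hS

/-- Area of the part of `S` over the open interval `(a, a + w)`, parametrised by `θ ∈ (0,1)`. -/
theorem area_param {S : Set (ℝ × ℝ)} (hS : MeasurableSet S) (a w : ℝ) (hw : 0 ≤ w) :
    volume (S ∩ {p | p.1 ∈ Ioo a (a + w)}) =
      ENNReal.ofReal w * ∫⁻ θ in Ioo (0 : ℝ) 1, volume (sec S (a + θ * w)) := by
  rcases hw.eq_or_lt with h0 | hpos
  · subst h0
    simp
  · have hm : MeasurableSet (S ∩ {p : ℝ × ℝ | p.1 ∈ Ioo a (a + w)}) :=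
      hS.inter (measurable_fst measurableSet_Ioo)
    rw [Measure.volume_eq_prod, Measure.prod_apply hm, ← lintegral_affine _ (measurable_vol_sec hS) a w hpos,
      ← lintegral_indicator measurableSet_Ioo]
    apply lintegral_congr
    intro x
    by_cases hx : x ∈ Ioo a (a + w)
    · rw [indicator_of_mem hx]
      congr 1
      ext y
      simp only [mem_preimage, mem_inter_iff, mem_ofPred_eq, sec]
      exact ⟨fun h => h.1, fun h => ⟨h, hx⟩⟩
    · rw [indicator_of_notMem hx]
      have : Prod.mk x ⁻¹' (S ∩ {p : ℝ × ℝ | p.1 ∈ Ioo a (a + w)}) = ∅ := by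
        ext y
        simp only [mem_preimage, mem_inter_iff, mem_ofPred_eq, mem_empty_iff_false, iff_false]
        exact fun h => hx h.2
      rw [this, measure_empty]

theorem volume_vertical_line (c : ℝ) : volume {p : ℝ × ℝ | p.1 = c} = 0 := by
  have : {p : ℝ × ℝ | p.1 = c} = ({c} : Set ℝ) ×ˢ (univ : Set ℝ) := by
    ext p
    simp
  rw [this, Measure.volume_eq_prod, Measure.prod_prod, Real.volume_singleton, zero_mul]

/-- If `S` lies over the closed interval `[a, a + w]`, the formula gives the whole area. -/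
theorem area_param_full {S : Set (ℝ × ℝ)} (hS : MeasurableSet S) (a w : ℝ) (hw : 0 ≤ w)
    (h : ∀ p ∈ S, a ≤ p.1 ∧ p.1 ≤ a + w) :
    volume S = ENNReal.ofReal w * ∫⁻ θ in Ioo (0 : ℝ) 1, volume (sec S (a + θ * w)) := by
  rw [← area_param hS a w hw]
  apply le_antisymm
  · have hsub : S ⊆ (S ∩ {p | p.1 ∈ Ioo a (a + w)}) ∪ ({p : ℝ × ℝ | p.1 = a} ∪ {p | p.1 = a + w}) := by
      intro p hp
      obtain ⟨h1, h2⟩ := h p hp
      rcases h1.eq_or_lt with e | l1
      · right; left; exact e.symm
      · rcases h2.eq_or_lt with e | l2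
        · right; right; exact e
        · left; exact ⟨hp, l1, l2⟩
    calc volume S ≤ volume ((S ∩ {p | p.1 ∈ Ioo a (a + w)}) ∪
          ({p : ℝ × ℝ | p.1 = a} ∪ {p | p.1 = a + w})) := measure_mono hsub
      _ ≤ volume (S ∩ {p | p.1 ∈ Ioo a (a + w)}) +
          (volume {p : ℝ × ℝ | p.1 = a} + volume {p : ℝ × ℝ | p.1 = a + w}) :=
          (measure_union_le _ _).trans (add_le_add le_rfl (measure_union_le _ _))
      _ = volume (S ∩ {p | p.1 ∈ Ioo a (a + w)}) := by
          rw [volume_vertical_line, volume_vertical_line]; simp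
  · exact measure_mono inter_subset_left

/-- The first projection of a nonempty bounded convex planar set is an interval with end points
`a ≤ a + w`; every point strictly between (and the point `a` itself if `w = 0`) is attained. -/
theorem exists_proj_interval {A : Set (ℝ × ℝ)} (hA : Convex ℝ A) (nA : A.Nonempty)
    (bA : Bornology.IsBounded A) :
    ∃ a w : ℝ, 0 ≤ w ∧ (∀ p ∈ A, a ≤ p.1 ∧ p.1 ≤ a + w) ∧
      ∀ θ ∈ Ioo (0 : ℝ) 1, (sec A (a + θ * w)).Nonempty := by
  set P : Set ℝ := Prod.fst '' A with hP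
  have cP : Convex ℝ P := hA.linear_image (LinearMap.fst ℝ ℝ ℝ)
  have nP : P.Nonempty := nA.image _
  obtain ⟨R, hR⟩ := isBounded_iff_forall_norm_le.1 bA
  have hPR : ∀ x ∈ P, |x| ≤ R := by
    rintro x ⟨p, hp, rfl⟩
    have h2 : ‖p.1‖ ≤ ‖p‖ := norm_fst_le p
    rw [Real.norm_eq_abs] at h2
    exact h2.trans (hR p hp)
  have hbb : BddBelow P := ⟨-R, fun x hx => (abs_le.1 (hPR x hx)).1⟩
  have hba : BddAbove P := ⟨R, fun x hx => (abs_le.1 (hPR x hx)).2⟩
  have hle : sInf P ≤ sSup P := by
    obtain ⟨x, hx⟩ := nP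
    exact (csInf_le hbb hx).trans (le_csSup hba hx)
  refine ⟨sInf P, sSup P - sInf P, by linarith, ?_, ?_⟩
  · intro p hp
    have hp' : p.1 ∈ P := ⟨p, hp, rfl⟩
    exact ⟨csInf_le hbb hp', by linarith [le_csSup hba hp']⟩
  · intro θ hθ
    have hmem : sInf P + θ * (sSup P - sInf P) ∈ P := by
      rcases hle.eq_or_lt with e | l
      · obtain ⟨x, hx⟩ := nP
        have h1 := csInf_le hbb hx
        have h2 := le_csSup hba hx
        have : x = sInf P := le_antisymm (by linarith) h1
        rw [← e, sub_self, mul_zero, add_zero, ← this]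
        exact hx
      · have hlo : sInf P < sInf P + θ * (sSup P - sInf P) := by nlinarith [hθ.1]
        have hhi : sInf P + θ * (sSup P - sInf P) < sSup P := by nlinarith [hθ.2]
        obtain ⟨u, hu, hux⟩ := (csInf_lt_iff hbb nP).1 hlo
        obtain ⟨v, hv, hxv⟩ := (lt_csSup_iff hba nP).1 hhi
        exact cP.ordConnected.out hu hv ⟨hux.le, hxv.le⟩
    obtain ⟨p, hp, hp1⟩ := hmem
    refine ⟨p.2, ?_⟩
    show (sInf P + θ * (sSup P - sInf P), p.2) ∈ A
    rw [← hp1]
    exact hp

end Vale.Agent.Lib.P243.Cap
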