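import Mathlib
import Vale.Agent.Lib.P243.Cap.Interval
import Vale.Agent.Lib.P243.Cap.Param

/-!
P243, capture lemma, step T1: the Brunn-Minkowski inequality for planar convex sets.

Proof.  Let `[a_i, a_i + w_i]` be the first projection of `A_i` (`exists_proj_interval`) and
`L_i = ∫_0^1 |sec A_i (a_i + θ w_i)| dθ`, so `|A_i| = w_i L_i` (`area_param_full`).  With
`a = (1-l) a_0 + l a_1`, `w = (1-l) w_0 + l w_1`, the section of `C` at `a + θ w` contains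
`(1-l) sec A_0 (a_0 + θ w_0) + l sec A_1 (a_1 + θ w_1)`, both nonempty convex bounded, so by
`interval_bm` and `area_param`
`|C| ≥ w ((1-l) L_0 + l L_1) ≥ ((1-l) √(w_0 L_0) + l √(w_1 L_1))^2` (`cauchy_arith`).
-/

namespace Vale.Agent.Lib.P243.Cap

open MeasureTheory Set

theorem cauchy_arith (p q w0 w1 L0 L1 : ℝ) (hp : 0 ≤ p) (hq : 0 ≤ q) (hw0 : 0 ≤ w0) (hw1 : 0 ≤ w1)
    (hL0 : 0 ≤ L0) (hL1 : 0 ≤ L1) :
    p * √(w0 * L0) + q * √(w1 * L1) ≤ √((p * w0 + q * w1) * (p * L0 + q * L1)) := by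
  set s0 := √(w0 * L0) with hs0
  set s1 := √(w1 * L1) with hs1
  have e0 : s0 ^ 2 = w0 * L0 := Real.sq_sqrt (mul_nonneg hw0 hL0)
  have e1 : s1 ^ 2 = w1 * L1 := Real.sq_sqrt (mul_nonneg hw1 hL1)
  have n0 : 0 ≤ s0 := Real.sqrt_nonneg _
  have n1 : 0 ≤ s1 := Real.sqrt_nonneg _
  have hY : 0 ≤ (w0 * L1 + w1 * L0) / 2 := by positivity
  have key : s0 * s1 ≤ (w0 * L1 + w1 * L0) / 2 := by
    apply abs_le_of_sq_le_sq' _ hY |>.2
    have : (s0 * s1) ^ 2 = (w0 * L1) * (w1 * L0) := by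
      rw [mul_pow, e0, e1]; ring
    rw [this]
    nlinarith [sq_nonneg (w0 * L1 - w1 * L0)]
  apply Real.le_sqrt_of_sq_le
  have hpq : 0 ≤ p * q := mul_nonneg hp hq
  have h2 := mul_le_mul_of_nonneg_left key hpq
  have h3 : (p * s0 + q * s1) ^ 2 = p ^ 2 * s0 ^ 2 + q ^ 2 * s1 ^ 2 + 2 * (p * q * (s0 * s1)) := by
    ring
  rw [h3, e0, e1]
  nlinarith [h2]

theorem convex_sec {A : Set (ℝ × ℝ)} (hA : Convex ℝ A) (x : ℝ) : Convex ℝ (sec A x) := by
  intro y hy y' hy' s t hs ht hst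
  have h := hA hy hy' hs ht hst
  show (x, s • y + t • y') ∈ A
  have e : s • ((x, y) : ℝ × ℝ) + t • ((x, y') : ℝ × ℝ) = (x, s • y + t • y') := by
    ext
    · simp only [Prod.smul_mk, Prod.mk_add_mk, smul_eq_mul]
      rw [← add_mul, hst, one_mul]
    · simp
  rw [← e]
  exact h

theorem exists_sec_subset {A : Set (ℝ × ℝ)} (bA : Bornology.IsBounded A) :
    ∃ R : ℝ, ∀ x, sec A x ⊆ Icc (-R) R := by
  obtain ⟨R, hR⟩ := isBounded_iff_forall_norm_le.1 bA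
  refine ⟨R, fun x y hy => ?_⟩
  have h1 := hR (x, y) hy
  have h2 : ‖y‖ ≤ ‖((x, y) : ℝ × ℝ)‖ := norm_snd_le ((x, y) : ℝ × ℝ)
  rw [Real.norm_eq_abs] at h2
  exact abs_le.1 (h2.trans h1)

theorem measurable_sec_vol {A : Set (ℝ × ℝ)} (mA : MeasurableSet A) (a w : ℝ) :
    Measurable fun θ : ℝ => volume (sec A (a + θ * w)) := by
  have h1 : Measurable fun x : ℝ => volume (Prod.mk x ⁻¹' A) := measurable_measure_prodMk_left mA
  exact h1.comp (by fun_prop : Measurable fun θ : ℝ => a + θ * w)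

theorem lintegral_sec_lt_top {A : Set (ℝ × ℝ)} (bA : Bornology.IsBounded A) (a w : ℝ) :
    ∫⁻ θ in Ioo (0 : ℝ) 1, volume (sec A (a + θ * w)) < ⊤ := by
  obtain ⟨R, hR⟩ := exists_sec_subset bA
  calc ∫⁻ θ in Ioo (0 : ℝ) 1, volume (sec A (a + θ * w))
      ≤ ∫⁻ _θ in Ioo (0 : ℝ) 1, volume (Icc (-R) R) :=
        lintegral_mono fun θ => measure_mono (hR _)
    _ = volume (Icc (-R) R) * volume (Ioo (0 : ℝ) 1) := by
        rw [lintegral_const, Measure.restrict_apply MeasurableSet.univ, univ_inter]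
    _ < ⊤ := by
        rw [Real.volume_Icc, Real.volume_Ioo]
        exact ENNReal.mul_lt_top ENNReal.ofReal_lt_top ENNReal.ofReal_lt_top

theorem brunn_planar {A0 A1 C : Set (ℝ × ℝ)} (h0 : Convex ℝ A0) (h1 : Convex ℝ A1)
    (m0 : MeasurableSet A0) (m1 : MeasurableSet A1) (mC : MeasurableSet C)
    (b0 : Bornology.IsBounded A0) (b1 : Bornology.IsBounded A1) (bC : Bornology.IsBounded C)
    (n0 : A0.Nonempty) (n1 : A1.Nonempty) {l : ℝ} (hl0 : 0 ≤ l) (hl1 : l ≤ 1)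
    (hsub : ∀ a ∈ A0, ∀ b ∈ A1, (1 - l) • a + l • b ∈ C) :
    (1 - l) * √(volume A0).toReal + l * √(volume A1).toReal ≤ √(volume C).toReal := by
  obtain ⟨a0, w0, hw0, hA0, hs0⟩ := exists_proj_interval h0 n0 b0
  obtain ⟨a1, w1, hw1, hA1, hs1⟩ := exists_proj_interval h1 n1 b1
  have hl' : 0 ≤ 1 - l := by linarith
  set I0 := ∫⁻ θ in Ioo (0 : ℝ) 1, volume (sec A0 (a0 + θ * w0)) with hI0
  set I1 := ∫⁻ θ in Ioo (0 : ℝ) 1, volume (sec A1 (a1 + θ * w1)) with hI1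
  have f0 : I0 < ⊤ := lintegral_sec_lt_top b0 a0 w0
  have f1 : I1 < ⊤ := lintegral_sec_lt_top b1 a1 w1
  have v0 : volume A0 = ENNReal.ofReal w0 * I0 := area_param_full m0 a0 w0 hw0 hA0
  have v1 : volume A1 = ENNReal.ofReal w1 * I1 := area_param_full m1 a1 w1 hw1 hA1
  set a := (1 - l) * a0 + l * a1 with ha
  set w := (1 - l) * w0 + l * w1 with hw
  have hw_nn : 0 ≤ w := by positivity
  have vC : ENNReal.ofReal w * ∫⁻ θ in Ioo (0 : ℝ) 1, volume (sec C (a + θ * w)) ≤ volume C := by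
    rw [← area_param mC a w hw_nn]
    exact measure_mono inter_subset_left
  obtain ⟨R0, hR0⟩ := exists_sec_subset b0
  obtain ⟨R1, hR1⟩ := exists_sec_subset b1
  have hpt : ∀ θ ∈ Ioo (0 : ℝ) 1,
      ENNReal.ofReal (1 - l) * volume (sec A0 (a0 + θ * w0)) +
        ENNReal.ofReal l * volume (sec A1 (a1 + θ * w1)) ≤ volume (sec C (a + θ * w)) := by
    intro θ hθ
    apply interval_bm (convex_sec h0 _) (convex_sec h1 _) (hs0 θ hθ) (hs1 θ hθ)
      ((Metric.isBounded_Icc _ _).subset (hR0 _)) ((Metric.isBounded_Icc _ _).subset (hR1 _))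
      hl0 hl1
    intro y hy y' hy'
    have h := hsub _ hy _ hy'
    show (a + θ * w, (1 - l) * y + l * y') ∈ C
    have e : (1 - l) • ((a0 + θ * w0, y) : ℝ × ℝ) + l • ((a1 + θ * w1, y') : ℝ × ℝ) =
        (a + θ * w, (1 - l) * y + l * y') := by
      ext
      · simp only [Prod.smul_mk, Prod.mk_add_mk, smul_eq_mul]
        rw [ha, hw]; ring
      · simp
    rw [← e]
    exact h
  have hint : ENNReal.ofReal (1 - l) * I0 + ENNReal.ofReal l * I1 ≤
      ∫⁻ θ in Ioo (0 : ℝ) 1, volume (sec C (a + θ * w)) := by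
    rw [hI0, hI1, ← lintegral_const_mul _ (measurable_sec_vol m0 a0 w0),
      ← lintegral_const_mul _ (measurable_sec_vol m1 a1 w1),
      ← lintegral_add_left ((measurable_sec_vol m0 a0 w0).const_mul _)]
    exact setLIntegral_mono' measurableSet_Ioo hpt
  have hCfin : volume C ≠ ⊤ := bC.measure_lt_top.ne
  have hfin : ENNReal.ofReal w * (ENNReal.ofReal (1 - l) * I0 + ENNReal.ofReal l * I1) ≤
      volume C := le_trans (mul_le_mul_right hint _) vC
  have hreal := ENNReal.toReal_mono hCfin hfin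
  have t0 : ENNReal.ofReal (1 - l) * I0 ≠ ⊤ := (ENNReal.mul_lt_top ENNReal.ofReal_lt_top f0).ne
  have t1 : ENNReal.ofReal l * I1 ≠ ⊤ := (ENNReal.mul_lt_top ENNReal.ofReal_lt_top f1).ne
  rw [ENNReal.toReal_mul, ENNReal.toReal_add t0 t1, ENNReal.toReal_mul, ENNReal.toReal_mul,
    ENNReal.toReal_ofReal hw_nn, ENNReal.toReal_ofReal hl', ENNReal.toReal_ofReal hl0] at hreal
  rw [v0, v1, ENNReal.toReal_mul, ENNReal.toReal_mul, ENNReal.toReal_ofReal hw0,
    ENNReal.toReal_ofReal hw1]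
  calc (1 - l) * √(w0 * I0.toReal) + l * √(w1 * I1.toReal)
      ≤ √(((1 - l) * w0 + l * w1) * ((1 - l) * I0.toReal + l * I1.toReal)) :=
        cauchy_arith _ _ _ _ _ _ hl' hl0 hw0 hw1 ENNReal.toReal_nonneg ENNReal.toReal_nonneg
    _ ≤ √(volume C).toReal := Real.sqrt_le_sqrt hreal

end Vale.Agent.Lib.P243.Cap
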