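import Mathlib
import Vale.Agent.Lib.P243.Cap.Interval
import Vale.Agent.Lib.P243.Cap.BrunnPlanar

/-!
P243, capture lemma, steps T2 and T3: the chord-length (X-ray) function of a convex body in
`(ℝ × ℝ) × ℝ` in the vertical direction, its superlevel sets, and Brunn's theorem for them.
-/

namespace Vale.Agent.Lib.P243.Cap

open MeasureTheory Set

/-- Length of the vertical chord of `K` over `y`. -/
noncomputable def fib (K : Set ((ℝ × ℝ) × ℝ)) (y : ℝ × ℝ) : ℝ :=
  (volume {z : ℝ | (y, z) ∈ K}).toReal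

/-- The points of the shadow of `K` whose vertical chord has length at least `s`. -/
def lev (K : Set ((ℝ × ℝ) × ℝ)) (s : ℝ) : Set (ℝ × ℝ) :=
  {y | y ∈ Prod.fst '' K ∧ s ≤ fib K y}

variable {K : Set ((ℝ × ℝ) × ℝ)}

theorem fib_nonneg (y : ℝ × ℝ) : 0 ≤ fib K y := ENNReal.toReal_nonneg

theorem chord_subset_snd (y : ℝ × ℝ) : {z : ℝ | (y, z) ∈ K} ⊆ Prod.snd '' K :=
  fun z hz => ⟨(y, z), hz, rfl⟩

theorem volume_snd_lt_top (hc : IsCompact K) : volume (Prod.snd '' K) < ⊤ :=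
  (hc.image continuous_snd).measure_lt_top

theorem volume_chord_lt_top (hc : IsCompact K) (y : ℝ × ℝ) :
    volume {z : ℝ | (y, z) ∈ K} < ⊤ :=
  (measure_mono (chord_subset_snd y)).trans_lt (volume_snd_lt_top hc)

theorem ofReal_fib (hc : IsCompact K) (y : ℝ × ℝ) :
    ENNReal.ofReal (fib K y) = volume {z : ℝ | (y, z) ∈ K} :=
  ENNReal.ofReal_toReal (volume_chord_lt_top hc y).ne

theorem measurable_fib (hc : IsCompact K) : Measurable (fib K) := by
  have h : Measurable fun y : ℝ × ℝ => (volume : Measure ℝ) (Prod.mk y ⁻¹' K) :=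
    measurable_measure_prodMk_left hc.isClosed.measurableSet
  exact h.ennreal_toReal

theorem fib_eq_zero_of_notMem {y : ℝ × ℝ} (hy : y ∉ Prod.fst '' K) : fib K y = 0 := by
  have h : {z : ℝ | (y, z) ∈ K} = ∅ := by
    ext z
    exact ⟨fun hz => hy ⟨(y, z), hz, rfl⟩, fun hz => hz.elim⟩
  unfold fib
  rw [h]
  simp

/-- The chord lengths are bounded. -/
theorem exists_fib_bound (hc : IsCompact K) : ∃ D : ℝ, 0 ≤ D ∧ ∀ y, fib K y ≤ D :=
  ⟨(volume (Prod.snd '' K)).toReal, ENNReal.toReal_nonneg, fun y =>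
    ENNReal.toReal_mono (volume_snd_lt_top hc).ne (measure_mono (chord_subset_snd y))⟩

theorem lev_zero : lev K 0 = Prod.fst '' K := by
  ext y
  exact ⟨fun h => h.1, fun h => ⟨h, fib_nonneg y⟩⟩

theorem lev_anti {s t : ℝ} (h : s ≤ t) : lev K t ⊆ lev K s :=
  fun _ hy => ⟨hy.1, h.trans hy.2⟩

theorem measurableSet_lev (hc : IsCompact K) (s : ℝ) : MeasurableSet (lev K s) := by
  have h1 : MeasurableSet (Prod.fst '' K) := (hc.image continuous_fst).isClosed.measurableSet
  have h2 : MeasurableSet {y | s ≤ fib K y} := measurableSet_le measurable_const (measurable_fib hc)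
  exact h1.inter h2

theorem isBounded_lev (hc : IsCompact K) (s : ℝ) : Bornology.IsBounded (lev K s) :=
  (hc.image continuous_fst).isBounded.subset (fun _ hy => hy.1)

theorem convex_chord (hK : Convex ℝ K) (y : ℝ × ℝ) : Convex ℝ {z : ℝ | (y, z) ∈ K} := by
  intro z hz z' hz' α β hα hβ hαβ
  have h := hK hz hz' hα hβ hαβ
  have e : α • ((y, z) : (ℝ × ℝ) × ℝ) + β • ((y, z') : (ℝ × ℝ) × ℝ) = (y, α • z + β • z') := by
    have e1 : α • y + β • y = y := by rw [← add_smul, hαβ, one_smul]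
    exact Prod.ext e1 rfl
  rw [e] at h
  exact h

theorem isBounded_chord (hc : IsCompact K) (y : ℝ × ℝ) :
    Bornology.IsBounded {z : ℝ | (y, z) ∈ K} :=
  (hc.image continuous_snd).isBounded.subset (chord_subset_snd y)

/-- Concavity of the chord-length function, in terms of superlevel sets. -/
theorem lev_comb (hK : Convex ℝ K) (hc : IsCompact K) {s t l : ℝ} (hl0 : 0 ≤ l) (hl1 : l ≤ 1)
    {a b : ℝ × ℝ} (ha : a ∈ lev K s) (hb : b ∈ lev K t) :
    (1 - l) • a + l • b ∈ lev K ((1 - l) * s + l * t) := by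
  have hl' : 0 ≤ 1 - l := by linarith
  obtain ⟨⟨⟨a', z1⟩, hz1, ha'⟩, hsa⟩ := ha
  obtain ⟨⟨⟨b', z2⟩, hz2, hb'⟩, htb⟩ := hb
  simp only at ha' hb'
  subst ha' hb'
  have hcomb : ∀ u ∈ {z : ℝ | (a', z) ∈ K}, ∀ v ∈ {z : ℝ | (b', z) ∈ K},
      (1 - l) * u + l * v ∈ {z : ℝ | ((1 - l) • a' + l • b', z) ∈ K} := by
    intro u hu v hv
    have h := hK hu hv hl' hl0 (by ring)
    rw [Prod.smul_mk, Prod.smul_mk, Prod.mk_add_mk] at h
    exact h
  refine ⟨⟨_, hcomb z1 hz1 z2 hz2, rfl⟩, ?_⟩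
  have hbm := interval_bm (convex_chord hK a') (convex_chord hK b') ⟨z1, hz1⟩ ⟨z2, hz2⟩
    (isBounded_chord hc a') (isBounded_chord hc b') hl0 hl1 hcomb
  rw [← ofReal_fib hc, ← ofReal_fib hc, ← ofReal_fib hc, ← ENNReal.ofReal_mul hl',
    ← ENNReal.ofReal_mul hl0,
    ← ENNReal.ofReal_add (mul_nonneg hl' (fib_nonneg _)) (mul_nonneg hl0 (fib_nonneg _)),
    ENNReal.ofReal_le_ofReal_iff (fib_nonneg _)] at hbm
  have h1 := mul_le_mul_of_nonneg_left hsa hl'
  have h2 := mul_le_mul_of_nonneg_left htb hl0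
  linarith

theorem convex_lev (hK : Convex ℝ K) (hc : IsCompact K) (s : ℝ) : Convex ℝ (lev K s) := by
  intro a ha b hb α β hα hβ hαβ
  have hα' : α = 1 - β := by linarith
  have h := lev_comb hK hc hβ (by linarith) ha hb
  have e : (1 - β) * s + β * s = s := by ring
  rw [e] at h
  rw [hα']
  exact h

/-- Brunn's theorem: the square root of the area of the superlevel sets is concave. -/
theorem sqrt_lev_concave (hK : Convex ℝ K) (hc : IsCompact K) {s t l : ℝ}
    (hs : (lev K s).Nonempty) (ht : (lev K t).Nonempty) (hl0 : 0 ≤ l) (hl1 : l ≤ 1) :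
    (1 - l) * √(volume (lev K s)).toReal + l * √(volume (lev K t)).toReal ≤
      √(volume (lev K ((1 - l) * s + l * t))).toReal :=
  brunn_planar (convex_lev hK hc s) (convex_lev hK hc t) (measurableSet_lev hc s)
    (measurableSet_lev hc t) (measurableSet_lev hc _) (isBounded_lev hc s) (isBounded_lev hc t)
    (isBounded_lev hc _) hs ht hl0 hl1 (fun _ ha _ hb => lev_comb hK hc hl0 hl1 ha hb)

end Vale.Agent.Lib.P243.Cap
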