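import Mathlib

/-!
P243, capture lemma, step T4a: pointwise comparison of a concave profile with a linear one.

Write `m = √μ`, `a = m 0`.  Let `s0 = sup {s ≥ 0 | r a ≤ m s}` (bounded above by `max D 0` since
`r a > 0`).  Concavity between the levels `0` and `t0` shows `m s ≥ r a` for small `s > 0`, so `s0 > 0`.
* `0 ≤ s < s0`: for `s < s' < s0` we have `m s' ≥ r a > 0` (antitone), and concavity between `0` and `s'`
  gives `m s ≥ a (1 - (1-r) s / s')`; let `s' → s0`.
* `s > s0`, `μ s > 0`: for `s0 < s' < s` we have `m s' < r a`, and concavity between `0` and `s` gives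
  `m s < a (1 - (1-r) s / s')`; let `s' → s0`.  If `μ s = 0` the bound is trivial.
-/

namespace Vale.Agent.Lib.P243.Cap

open Filter Topology Set

theorem one_dim_pointwise (μ : ℝ → ℝ) (D : ℝ)
    (hnn : ∀ s, 0 ≤ μ s)
    (hanti : ∀ s t, 0 ≤ s → s ≤ t → μ t ≤ μ s)
    (hD : ∀ s, D < s → μ s = 0)
    (hconc : ∀ s t l, 0 ≤ s → 0 ≤ t → 0 < μ s → 0 < μ t → 0 ≤ l → l ≤ 1 →
      (1 - l) * √(μ s) + l * √(μ t) ≤ √(μ ((1 - l) * s + l * t)))
    (r : ℝ) (hr0 : 0 < r) (hr1 : r < 1) (t0 : ℝ) (ht0 : 0 < t0) (hμt0 : 0 < μ t0) :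
    ∃ s0 : ℝ, 0 < s0 ∧
      (∀ s, 0 ≤ s → s < s0 → √(μ 0) * (1 - (1 - r) * s / s0) ≤ √(μ s)) ∧
      (∀ s, s0 < s → √(μ s) ≤ √(μ 0) * max 0 (1 - (1 - r) * s / s0)) := by
  have hμ0 : 0 < μ 0 := lt_of_lt_of_le hμt0 (hanti 0 t0 le_rfl ht0.le)
  set a : ℝ := √(μ 0) with ha
  have ha0 : 0 < a := Real.sqrt_pos.2 hμ0
  have hra : 0 < r * a := mul_pos hr0 ha0
  set S : Set ℝ := {s | 0 ≤ s ∧ r * a ≤ √(μ s)} with hS
  have hbdd : BddAbove S := by
    refine ⟨max D 0, ?_⟩
    intro s hs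
    by_contra hcon
    push Not at hcon
    have h1 : D < s := lt_of_le_of_lt (le_max_left _ _) hcon
    have h2 := hs.2
    rw [hD s h1, Real.sqrt_zero] at h2
    linarith
  have hmem : (1 - r) * t0 ∈ S := by
    refine ⟨by nlinarith, ?_⟩
    have h := hconc 0 t0 (1 - r) le_rfl ht0.le hμ0 hμt0 (by linarith) (by linarith)
    have e : (1 - (1 - r)) * 0 + (1 - r) * t0 = (1 - r) * t0 := by ring
    rw [e] at h
    have h2 : 0 ≤ (1 - r) * √(μ t0) := mul_nonneg (by linarith) (Real.sqrt_nonneg _)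
    have e2 : (1 - (1 - r)) * √(μ 0) = r * a := by rw [ha]; ring
    rw [e2] at h
    linarith
  set s0 : ℝ := sSup S with hs0def
  have hs0 : 0 < s0 := lt_of_lt_of_le (by nlinarith) (le_csSup hbdd hmem)
  -- everything below `s0` lies in `S`
  have hbelow : ∀ s', 0 ≤ s' → s' < s0 → r * a ≤ √(μ s') := by
    intro s' h0 hlt
    obtain ⟨s'', hs'', hlt'⟩ := exists_lt_of_lt_csSup ⟨_, hmem⟩ hlt
    exact hs''.2.trans (Real.sqrt_le_sqrt (hanti s' s'' h0 hlt'.le))
  have habove : ∀ s', s0 < s' → √(μ s') < r * a := by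
    intro s' hlt
    by_contra hcon
    push Not at hcon
    have : s' ∈ S := ⟨by linarith, hcon⟩
    have := le_csSup hbdd this
    linarith
  have hFc : ∀ s : ℝ, ContinuousAt (fun s' : ℝ => a * (1 - (1 - r) * s / s')) s0 := fun s =>
    continuousAt_const.mul (continuousAt_const.sub (continuousAt_const.div continuousAt_id hs0.ne'))
  refine ⟨s0, hs0, ?_, ?_⟩
  · intro s hs hlt
    refine le_of_tendsto ((hFc s).tendsto.mono_left (nhdsWithin_le_nhds (s := Iio s0))) ?_
    filter_upwards [Ioo_mem_nhdsLT hlt] with s' hs'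
    have hs'0 : 0 < s' := lt_of_le_of_lt hs hs'.1
    have h1 := hbelow s' hs'0.le hs'.2
    have hμs' : 0 < μ s' := Real.sqrt_pos.1 (lt_of_lt_of_le hra h1)
    have h := hconc 0 s' (s / s') le_rfl hs'0.le hμ0 hμs' (by positivity)
      ((div_le_one hs'0).2 hs'.1.le)
    have e : (1 - s / s') * 0 + s / s' * s' = s := by
      rw [mul_zero, zero_add]; field_simp
    rw [e] at h
    have h2 : s / s' * (r * a) ≤ s / s' * √(μ s') :=
      mul_le_mul_of_nonneg_left h1 (by positivity)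
    have e2 : a * (1 - (1 - r) * s / s') = (1 - s / s') * a + s / s' * (r * a) := by ring
    rw [e2]
    linarith
  · intro s hlt
    rcases (hnn s).eq_or_lt with h0 | hpos
    · rw [← h0, Real.sqrt_zero]
      exact mul_nonneg ha0.le (le_max_left _ _)
    refine le_trans ?_ (mul_le_mul_of_nonneg_left (le_max_right _ _) ha0.le)
    refine ge_of_tendsto ((hFc s).tendsto.mono_left (nhdsWithin_le_nhds (s := Ioi s0))) ?_
    filter_upwards [Ioo_mem_nhdsGT hlt] with s' hs'
    have hs'0 : 0 < s' := lt_trans hs0 hs'.1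
    have hs_pos : 0 < s := lt_trans hs0 hlt
    have h1 := habove s' hs'.1
    have h := hconc 0 s (s' / s) le_rfl hs_pos.le hμ0 hpos (by positivity)
      ((div_le_one hs_pos).2 hs'.2.le)
    have e : (1 - s' / s) * 0 + s' / s * s = s' := by
      rw [mul_zero, zero_add]; field_simp
    rw [e] at h
    -- (1 - s'/s) a + (s'/s) m s ≤ m s' < r a
    have h3 : (1 - s' / s) * a + s' / s * √(μ s) ≤ r * a := by linarith
    have h4 : s' / s * √(μ s) ≤ s' / s * (a * (1 - (1 - r) * s / s')) := by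
      have e3 : s' / s * (a * (1 - (1 - r) * s / s')) = r * a - (1 - s' / s) * a := by
        field_simp
        ring
      rw [e3]
      linarith
    exact le_of_mul_le_mul_left h4 (by positivity)

end Vale.Agent.Lib.P243.Cap
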