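import Mathlib

/-!
P243, capture lemma, step T4b: integration of the pointwise bounds.

`I1 = ∫_0^{s0} μ ≥ c1 := a² s0 (1 + r + r²)/3`, `I2 = ∫_{s0}^∞ μ ≤ c2 := a² s0 r³ / (3 (1-r))`, and with
`Ψ = 3r² - 2r³ ∈ [0,1]`, `X = s0 r² a²`:  `X + (1-Ψ) c2 = Ψ c1`.  Hence
`X + I2 = X + Ψ I2 + (1-Ψ) I2 ≤ Ψ I2 + Ψ c1 ≤ Ψ (I1 + I2)`.
No measurability of `μ` is needed (`lintegral_mono`, and `Ioi 0 = Ioc 0 s0 ∪ Ioi s0`).
-/

namespace Vale.Agent.Lib.P243.Cap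

open MeasureTheory Set

private theorem lint_quad (A r s0 : ℝ) (hA0 : 0 ≤ A) (hr1 : r < 1) (hs0 : 0 < s0) (a b : ℝ)
    (hab : a ≤ b) :
    ∫⁻ t in Ioc a b, ENNReal.ofReal (A * (1 - (1 - r) * t / s0) ^ 2) =
      ENNReal.ofReal (-(A * s0 / (3 * (1 - r))) * (1 - (1 - r) * b / s0) ^ 3
        - -(A * s0 / (3 * (1 - r))) * (1 - (1 - r) * a / s0) ^ 3) := by
  have h1r : 0 < 1 - r := by linarith
  have hderiv : ∀ t : ℝ, HasDerivAt
      (fun t : ℝ => -(A * s0 / (3 * (1 - r))) * (1 - (1 - r) * t / s0) ^ 3)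
      (A * (1 - (1 - r) * t / s0) ^ 2) t := by
    intro t
    have h1 : HasDerivAt (fun t : ℝ => 1 - (1 - r) * t / s0) (-((1 - r) / s0)) t := by
      have h0 := (((hasDerivAt_id t).const_mul (1 - r)).div_const s0).const_sub 1
      simpa using h0
    have h3 := (h1.pow 3).const_mul (-(A * s0 / (3 * (1 - r))))
    have hs0' : s0 ≠ 0 := hs0.ne'
    have h1r' : 1 - r ≠ 0 := h1r.ne'
    have hval : -(A * s0 / (3 * (1 - r))) *
        (((3 : ℕ) : ℝ) * (1 - (1 - r) * t / s0) ^ (3 - 1) * -((1 - r) / s0))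
        = A * (1 - (1 - r) * t / s0) ^ 2 := by
      norm_num
      field_simp
    exact h3.congr_deriv hval
  have hgcont : Continuous (fun t : ℝ => A * (1 - (1 - r) * t / s0) ^ 2) := by fun_prop
  have hint : ∫ t in a..b, A * (1 - (1 - r) * t / s0) ^ 2 =
      -(A * s0 / (3 * (1 - r))) * (1 - (1 - r) * b / s0) ^ 3
        - -(A * s0 / (3 * (1 - r))) * (1 - (1 - r) * a / s0) ^ 3 :=
    intervalIntegral.integral_eq_sub_of_hasDerivAt (fun t _ => hderiv t)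
      (hgcont.intervalIntegrable a b)
  rw [← hint, intervalIntegral.integral_of_le hab, ofReal_integral_eq_lintegral_ofReal]
  · exact (hgcont.integrableOn_Icc).mono_set Ioc_subset_Icc_self
  · exact Filter.Eventually.of_forall fun t => mul_nonneg hA0 (sq_nonneg _)

theorem one_dim_integrate (μ : ℝ → ℝ) (hnn : ∀ s, 0 ≤ μ s) (r s0 : ℝ)
    (hr0 : 0 < r) (hr1 : r < 1) (hs0 : 0 < s0)
    (hlow : ∀ s, 0 ≤ s → s < s0 → √(μ 0) * (1 - (1 - r) * s / s0) ≤ √(μ s))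
    (hup : ∀ s, s0 < s → √(μ s) ≤ √(μ 0) * max 0 (1 - (1 - r) * s / s0)) :
    ENNReal.ofReal s0 * (ENNReal.ofReal (r ^ 2) * ENNReal.ofReal (μ 0)) +
        ∫⁻ t in Ioi s0, ENNReal.ofReal (μ t) ≤
      ENNReal.ofReal (3 * r ^ 2 - 2 * r ^ 3) * ∫⁻ t in Ioi (0 : ℝ), ENNReal.ofReal (μ t) := by
  have hA0 : 0 ≤ μ 0 := hnn 0
  have h1r : 0 < 1 - r := by linarith
  -- pointwise bounds
  have hlow' : ∀ s ∈ Ioo (0 : ℝ) s0, μ 0 * (1 - (1 - r) * s / s0) ^ 2 ≤ μ s := by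
    intro s hs
    have h := hlow s hs.1.le hs.2
    have hpos : 0 ≤ 1 - (1 - r) * s / s0 := by
      have : (1 - r) * s / s0 ≤ 1 := by
        rw [div_le_one hs0]
        nlinarith [hs.1, hs.2]
      linarith
    have h2 := pow_le_pow_left₀ (mul_nonneg (Real.sqrt_nonneg _) hpos) h 2
    rw [mul_pow, Real.sq_sqrt hA0, Real.sq_sqrt (hnn s)] at h2
    exact h2
  have hup' : ∀ s, s0 < s → μ s ≤ μ 0 * (max 0 (1 - (1 - r) * s / s0)) ^ 2 := by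
    intro s hs
    have h := hup s hs
    have h2 := pow_le_pow_left₀ (Real.sqrt_nonneg _) h 2
    rw [mul_pow, Real.sq_sqrt hA0, Real.sq_sqrt (hnn s)] at h2
    exact h2
  -- I1
  have hI1 : ENNReal.ofReal (μ 0 * s0 * (1 + r + r ^ 2) / 3)
      ≤ ∫⁻ t in Ioc (0 : ℝ) s0, ENNReal.ofReal (μ t) := by
    have e1 := lint_quad (μ 0) r s0 hA0 hr1 hs0 0 s0 hs0.le
    have e2 : -(μ 0 * s0 / (3 * (1 - r))) * (1 - (1 - r) * s0 / s0) ^ 3
        - -(μ 0 * s0 / (3 * (1 - r))) * (1 - (1 - r) * 0 / s0) ^ 3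
        = μ 0 * s0 * (1 + r + r ^ 2) / 3 := by
      field_simp
      ring
    rw [e2] at e1
    rw [← e1, ← setLIntegral_congr (Ioo_ae_eq_Ioc (a := (0 : ℝ)) (b := s0))]
    calc ∫⁻ t in Ioo (0 : ℝ) s0, ENNReal.ofReal (μ 0 * (1 - (1 - r) * t / s0) ^ 2)
        ≤ ∫⁻ t in Ioo (0 : ℝ) s0, ENNReal.ofReal (μ t) :=
          setLIntegral_mono' measurableSet_Ioo fun t ht => ENNReal.ofReal_le_ofReal (hlow' t ht)
      _ ≤ ∫⁻ t in Ioc (0 : ℝ) s0, ENNReal.ofReal (μ t) :=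
          lintegral_mono_set Ioo_subset_Ioc_self
  -- I2
  have hs1 : s0 ≤ s0 / (1 - r) := by
    rw [le_div_iff₀ h1r]
    nlinarith
  have hI2 : ∫⁻ t in Ioi s0, ENNReal.ofReal (μ t)
      ≤ ENNReal.ofReal (μ 0 * s0 * r ^ 3 / (3 * (1 - r))) := by
    have e1 := lint_quad (μ 0) r s0 hA0 hr1 hs0 s0 (s0 / (1 - r)) hs1
    have e2 : -(μ 0 * s0 / (3 * (1 - r))) * (1 - (1 - r) * (s0 / (1 - r)) / s0) ^ 3
        - -(μ 0 * s0 / (3 * (1 - r))) * (1 - (1 - r) * s0 / s0) ^ 3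
        = μ 0 * s0 * r ^ 3 / (3 * (1 - r)) := by
      field_simp
      ring
    rw [e2] at e1
    rw [← e1, ← Ioc_union_Ioi_eq_Ioi hs1,
      lintegral_union measurableSet_Ioi (Ioc_disjoint_Ioi le_rfl)]
    have hz : ∫⁻ t in Ioi (s0 / (1 - r)), ENNReal.ofReal (μ t) = 0 := by
      have : ∫⁻ t in Ioi (s0 / (1 - r)), ENNReal.ofReal (μ t)
          ≤ ∫⁻ _t in Ioi (s0 / (1 - r)), (0 : ENNReal) := by
        apply setLIntegral_mono' measurableSet_Ioi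
        intro t ht
        have ht' : s0 / (1 - r) < t := ht
        have h := hup' t (lt_of_le_of_lt hs1 ht')
        have hneg : 1 - (1 - r) * t / s0 ≤ 0 := by
          have : 1 ≤ (1 - r) * t / s0 := by
            rw [le_div_iff₀ hs0]
            rw [div_lt_iff₀ h1r] at ht'
            linarith
          linarith
        rw [max_eq_left hneg] at h
        have : μ t ≤ 0 := by simpa using h
        simp [ENNReal.ofReal_eq_zero.mpr this]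
      simpa using this
    rw [hz, add_zero]
    apply setLIntegral_mono' measurableSet_Ioc
    intro t ht
    apply ENNReal.ofReal_le_ofReal
    have h := hup' t ht.1
    have hpos : 0 ≤ 1 - (1 - r) * t / s0 := by
      have : (1 - r) * t / s0 ≤ 1 := by
        rw [div_le_one hs0]
        have := ht.2
        rw [le_div_iff₀ h1r] at this
        linarith
      linarith
    rwa [max_eq_right hpos] at h
  -- split
  have hsplit : ∫⁻ t in Ioi (0 : ℝ), ENNReal.ofReal (μ t)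
      = (∫⁻ t in Ioc (0 : ℝ) s0, ENNReal.ofReal (μ t)) + ∫⁻ t in Ioi s0, ENNReal.ofReal (μ t) := by
    rw [← Ioc_union_Ioi_eq_Ioi hs0.le,
      lintegral_union measurableSet_Ioi (Ioc_disjoint_Ioi le_rfl)]
  rw [hsplit]
  have hfin : ∫⁻ t in Ioi s0, ENNReal.ofReal (μ t) ≠ ⊤ :=
    ne_top_of_le_ne_top ENNReal.ofReal_ne_top hI2
  obtain ⟨i2, hi2⟩ : ∃ i2 : ℝ, 0 ≤ i2 ∧ ∫⁻ t in Ioi s0, ENNReal.ofReal (μ t) = ENNReal.ofReal i2 :=
    ⟨(∫⁻ t in Ioi s0, ENNReal.ofReal (μ t)).toReal, ENNReal.toReal_nonneg,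
      (ENNReal.ofReal_toReal hfin).symm⟩
  obtain ⟨hi0, hi2⟩ := hi2
  rw [hi2] at hI2 ⊢
  have hc2 : 0 ≤ μ 0 * s0 * r ^ 3 / (3 * (1 - r)) := by positivity
  have hi2le : i2 ≤ μ 0 * s0 * r ^ 3 / (3 * (1 - r)) := (ENNReal.ofReal_le_ofReal_iff hc2).mp hI2
  have hc1 : 0 ≤ μ 0 * s0 * (1 + r + r ^ 2) / 3 := by positivity
  have hΨ0 : 0 ≤ 3 * r ^ 2 - 2 * r ^ 3 := by nlinarith [sq_nonneg r]
  have hΨ1 : 0 ≤ 1 - (3 * r ^ 2 - 2 * r ^ 3) := by
    have : 1 - (3 * r ^ 2 - 2 * r ^ 3) = (1 - r) ^ 2 * (1 + 2 * r) := by ring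
    rw [this]
    positivity
  have hid : s0 * (r ^ 2 * μ 0) + (1 - (3 * r ^ 2 - 2 * r ^ 3)) * (μ 0 * s0 * r ^ 3 / (3 * (1 - r)))
      = (3 * r ^ 2 - 2 * r ^ 3) * (μ 0 * s0 * (1 + r + r ^ 2) / 3) := by
    field_simp
    ring
  calc ENNReal.ofReal s0 * (ENNReal.ofReal (r ^ 2) * ENNReal.ofReal (μ 0)) + ENNReal.ofReal i2
      = ENNReal.ofReal (s0 * (r ^ 2 * μ 0) + i2) := by
        rw [← ENNReal.ofReal_mul (by positivity), ← ENNReal.ofReal_mul hs0.le,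
          ← ENNReal.ofReal_add (by positivity) hi0]
    _ ≤ ENNReal.ofReal ((3 * r ^ 2 - 2 * r ^ 3) * (μ 0 * s0 * (1 + r + r ^ 2) / 3 + i2)) := by
        apply ENNReal.ofReal_le_ofReal
        nlinarith [mul_le_mul_of_nonneg_left hi2le hΨ1]
    _ = ENNReal.ofReal (3 * r ^ 2 - 2 * r ^ 3) *
          (ENNReal.ofReal (μ 0 * s0 * (1 + r + r ^ 2) / 3) + ENNReal.ofReal i2) := by
        rw [ENNReal.ofReal_mul hΨ0, ENNReal.ofReal_add hc1 hi0]
    _ ≤ _ := by gcongr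

end Vale.Agent.Lib.P243.Cap
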