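import Mathlib
import Vale.Agent.Lib.P243.Cap.OneDimA
import Vale.Agent.Lib.P243.Cap.OneDimB

/-!
P243, capture lemma, step T4: the one-dimensional extremal problem (assembly of `one_dim_pointwise`
and `one_dim_integrate` plus the degenerate cases).

`μ` plays the role of `s ↦ area {chord length ≥ s}`.  Write `m = √μ`, `a = m 0`.
If `r = 0` take `s0 = max D 0`; if `μ t = 0` for all `t > 0` take `s0 = 0`; if `r = 1` take `s0 = 0`.
Otherwise let `s0 = sup {s ≥ 0 | r a ≤ m s}`; concavity between `0` and a level `t > 0` with `μ t > 0`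
shows `s0 > 0`.  By three-point concavity
* `m s ≥ a (1 - (1-r) s / s0)` for `0 ≤ s < s0`  (use levels `0 < s < s' < s0`, `m s' ≥ r a`, `s' → s0`),
* `m s ≤ a max 0 (1 - (1-r) s / s0)` for `s > s0` (use levels `0 < s' < s`, `s0 < s'`, `m s' < r a`,
  `s' → s0`).
Hence `I1 = ∫_0^{s0} μ ≥ a² s0 (1 + r + r²)/3` and `I2 = ∫_{s0}^∞ μ ≤ a² s0 r³ / (3 (1-r))`, and
`s0 r² a² + I2 ≤ Ψ (I1 + I2)` with `Ψ = 3r² - 2r³ ≤ 1` follows from
`3 r² (1-r) + (1-Ψ) r³ = Ψ (1 - r³)`.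
-/

namespace Vale.Agent.Lib.P243.Cap

open MeasureTheory Set

theorem one_dim (μ : ℝ → ℝ) (D : ℝ)
    (hnn : ∀ s, 0 ≤ μ s)
    (hanti : ∀ s t, 0 ≤ s → s ≤ t → μ t ≤ μ s)
    (hD : ∀ s, D < s → μ s = 0)
    (hconc : ∀ s t l, 0 ≤ s → 0 ≤ t → 0 < μ s → 0 < μ t → 0 ≤ l → l ≤ 1 →
      (1 - l) * √(μ s) + l * √(μ t) ≤ √(μ ((1 - l) * s + l * t)))
    (r : ℝ) (hr0 : 0 ≤ r) (hr1 : r ≤ 1) :
    ∃ s0 : ℝ, 0 ≤ s0 ∧
      ENNReal.ofReal s0 * (ENNReal.ofReal (r ^ 2) * ENNReal.ofReal (μ 0)) +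
          ∫⁻ t in Ioi s0, ENNReal.ofReal (μ t) ≤
        ENNReal.ofReal (3 * r ^ 2 - 2 * r ^ 3) * ∫⁻ t in Ioi (0 : ℝ), ENNReal.ofReal (μ t) := by
  have hzero : ∀ c : ℝ, (∀ t, c < t → μ t = 0) → ∫⁻ t in Ioi c, ENNReal.ofReal (μ t) = 0 := by
    intro c hc
    rw [setLIntegral_congr_fun measurableSet_Ioi (g := fun _ => 0)
      (fun t ht => by simp [hc t ht])]
    simp
  rcases hr0.eq_or_lt with h0 | hpos
  · subst h0
    refine ⟨max D 0, le_max_right _ _, ?_⟩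
    rw [hzero (max D 0) (fun t ht => hD t (lt_of_le_of_lt (le_max_left _ _) ht))]
    simp
  rcases hr1.eq_or_lt with h1 | hlt
  · subst h1
    refine ⟨0, le_rfl, ?_⟩
    norm_num
  by_cases hex : ∃ t0 : ℝ, 0 < t0 ∧ 0 < μ t0
  · obtain ⟨t0, ht0, hμt0⟩ := hex
    obtain ⟨s0, hs0, hlow, hup⟩ := one_dim_pointwise μ D hnn hanti hD hconc r hpos hlt t0 ht0 hμt0
    exact ⟨s0, hs0.le, one_dim_integrate μ hnn r s0 hpos hlt hs0 hlow hup⟩
  · push Not at hex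
    refine ⟨0, le_rfl, ?_⟩
    rw [hzero 0 (fun t ht => le_antisymm (hex t ht) (hnn t))]
    simp

end Vale.Agent.Lib.P243.Cap
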