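import Mathlib
import Vale.Agent.Lib.P243.Cap.Fiber
import Vale.Agent.Lib.P243.Cap.OneDim

/-!
P243, capture lemma, step T5: the capture lemma in coordinates.
A vertical cylinder whose base has relative area at most `r²` captures at most the fraction
`3r² - 2r³` of the volume of a convex body.
-/

namespace Vale.Agent.Lib.P243.Cap

open MeasureTheory Set

variable {K : Set ((ℝ × ℝ) × ℝ)}

/-- Fubini. -/
theorem volume_inter_cyl (hc : IsCompact K) {B : Set (ℝ × ℝ)} (hB : MeasurableSet B) :
    volume (K ∩ Prod.fst ⁻¹' B) = ∫⁻ y in B, ENNReal.ofReal (fib K y) := by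
  have hKm : MeasurableSet K := hc.isClosed.measurableSet
  have hm : MeasurableSet (K ∩ Prod.fst ⁻¹' B) := hKm.inter (measurable_fst hB)
  rw [Measure.volume_eq_prod, Measure.prod_apply hm, ← lintegral_indicator hB]
  refine lintegral_congr fun y => ?_
  by_cases hy : y ∈ B
  · rw [indicator_of_mem hy, ofReal_fib hc]
    congr 1
    ext z
    simp [hy]
  · rw [indicator_of_notMem hy]
    have : Prod.mk y ⁻¹' (K ∩ Prod.fst ⁻¹' B) = ∅ := by
      ext z
      simp [hy]
    rw [this, measure_empty]

theorem volume_eq_lintegral_fib (hc : IsCompact K) :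
    volume K = ∫⁻ y, ENNReal.ofReal (fib K y) := by
  have h := volume_inter_cyl hc (B := univ) MeasurableSet.univ
  simpa using h

lemma measurableSet_shadow (hc : IsCompact K) : MeasurableSet (Prod.fst '' K) :=
  (hc.image continuous_fst).isClosed.measurableSet

/-- Bathtub bound. -/
theorem bathtub (hc : IsCompact K) {B : Set (ℝ × ℝ)} (hB : MeasurableSet B) (s0 : ℝ)
    (hs0 : 0 ≤ s0) :
    ∫⁻ y in B, ENNReal.ofReal (fib K y) ≤
      ENNReal.ofReal s0 * volume (B ∩ Prod.fst '' K) +
        ∫⁻ y, ENNReal.ofReal (fib K y - s0) := by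
  have hP := measurableSet_shadow hc
  have hpt : ∀ y, ENNReal.ofReal (fib K y) ≤
      (Prod.fst '' K).indicator (fun _ => ENNReal.ofReal s0) y + ENNReal.ofReal (fib K y - s0) := by
    intro y
    by_cases hy : y ∈ Prod.fst '' K
    · rw [indicator_of_mem hy]
      calc ENNReal.ofReal (fib K y) = ENNReal.ofReal (s0 + (fib K y - s0)) := by
            congr 1
            ring
        _ ≤ ENNReal.ofReal s0 + ENNReal.ofReal (fib K y - s0) := ENNReal.ofReal_add_le
    · rw [fib_eq_zero_of_notMem hy]
      simp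
  have hm1 : Measurable ((Prod.fst '' K).indicator (fun _ : ℝ × ℝ => ENNReal.ofReal s0)) :=
    measurable_const.indicator hP
  calc ∫⁻ y in B, ENNReal.ofReal (fib K y)
      ≤ ∫⁻ y in B, ((Prod.fst '' K).indicator (fun _ => ENNReal.ofReal s0) y
          + ENNReal.ofReal (fib K y - s0)) := lintegral_mono fun y => hpt y
    _ = (∫⁻ y in B, (Prod.fst '' K).indicator (fun _ => ENNReal.ofReal s0) y)
          + ∫⁻ y in B, ENNReal.ofReal (fib K y - s0) := lintegral_add_left hm1 _
    _ ≤ ENNReal.ofReal s0 * volume (B ∩ Prod.fst '' K)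
          + ∫⁻ y, ENNReal.ofReal (fib K y - s0) := by
        gcongr
        · rw [lintegral_indicator hP, Measure.restrict_restrict hP, setLIntegral_const,
            inter_comm]
        · exact Measure.restrict_le_self

lemma setOf_le_eq_lev {s0 t : ℝ} (hs0 : 0 ≤ s0) (ht : 0 < t) :
    {y | t ≤ max (fib K y - s0) 0} = lev K (t + s0) := by
  ext y
  simp only [mem_ofPred_eq, lev]
  constructor
  · intro h
    have h1 : t ≤ fib K y - s0 := by
      rcases le_max_iff.mp h with h | h
      · exact h
      · exact absurd h (not_le.mpr ht)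
    refine ⟨?_, by linarith⟩
    by_contra hy
    rw [fib_eq_zero_of_notMem hy] at h1
    linarith
  · intro h
    exact le_max_of_le_left (by linarith [h.2])

/-- Layer cake above the level `s0 ≥ 0`. -/
theorem layer_cake (hc : IsCompact K) (s0 : ℝ) (hs0 : 0 ≤ s0) :
    ∫⁻ y, ENNReal.ofReal (fib K y - s0) = ∫⁻ t in Ioi s0, volume (lev K t) := by
  have hmeas : Measurable (fun y => max (fib K y - s0) 0) :=
    ((measurable_fib hc).sub_const s0).max measurable_const
  have h1 := lintegral_eq_lintegral_meas_le (volume : Measure (ℝ × ℝ))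
    (f := fun y => max (fib K y - s0) 0) (Filter.Eventually.of_forall fun y => le_max_right _ _)
    hmeas.aemeasurable
  have h2 : ∀ y, ENNReal.ofReal (max (fib K y - s0) 0) = ENNReal.ofReal (fib K y - s0) := by
    intro y
    rcases le_total (fib K y - s0) 0 with h | h
    · rw [max_eq_right h, ENNReal.ofReal_zero, ENNReal.ofReal_of_nonpos h]
    · rw [max_eq_left h]
  simp only [h2] at h1
  rw [h1]
  have h3 : ∫⁻ t in Ioi (0 : ℝ), volume {y | t ≤ max (fib K y - s0) 0}
      = ∫⁻ t in Ioi (0 : ℝ), volume (lev K (t + s0)) := by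
    refine setLIntegral_congr_fun measurableSet_Ioi fun t ht => ?_
    rw [setOf_le_eq_lev hs0 ht]
  rw [h3, ← lintegral_indicator measurableSet_Ioi, ← lintegral_indicator measurableSet_Ioi,
    ← lintegral_add_right_eq_self (fun t => (Ioi s0).indicator (fun t => volume (lev K t)) t) s0]
  refine lintegral_congr fun t => ?_
  by_cases ht : 0 < t
  · rw [indicator_of_mem (show t ∈ Ioi (0 : ℝ) from ht),
      indicator_of_mem (show t + s0 ∈ Ioi s0 from by simpa using ht)]
  · rw [indicator_of_notMem (show t ∉ Ioi (0 : ℝ) from ht),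
      indicator_of_notMem (show t + s0 ∉ Ioi s0 from by simpa using ht)]

lemma volume_lev_lt_top (hc : IsCompact K) (s : ℝ) : volume (lev K s) < ⊤ :=
  (isBounded_lev hc s).measure_lt_top

lemma ofReal_toReal_lev (hc : IsCompact K) (s : ℝ) :
    ENNReal.ofReal (volume (lev K s)).toReal = volume (lev K s) :=
  ENNReal.ofReal_toReal (volume_lev_lt_top hc s).ne

theorem capture_coord (hK : Convex ℝ K) (hc : IsCompact K)
    {B : Set (ℝ × ℝ)} (hB : MeasurableSet B) {r : ℝ} (hr0 : 0 ≤ r) (hr1 : r ≤ 1)
    (hBr : volume (B ∩ Prod.fst '' K) ≤ ENNReal.ofReal (r ^ 2) * volume (Prod.fst '' K)) :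
    volume (K ∩ Prod.fst ⁻¹' B) ≤ ENNReal.ofReal (3 * r ^ 2 - 2 * r ^ 3) * volume K := by
  obtain ⟨D, _, hD⟩ := exists_fib_bound hc
  have hne : ∀ s, 0 < (volume (lev K s)).toReal → (lev K s).Nonempty := by
    intro s hs
    by_contra hcon
    rw [not_nonempty_iff_eq_empty] at hcon
    rw [hcon] at hs
    simp at hs
  obtain ⟨s0, hs0, hmain⟩ := one_dim (fun s => (volume (lev K s)).toReal) D
    (fun s => ENNReal.toReal_nonneg)
    (fun s t _ hst => ENNReal.toReal_mono (volume_lev_lt_top hc s).ne (measure_mono (lev_anti hst)))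
    (fun s hs => by
      have : lev K s = ∅ := by
        rw [eq_empty_iff_forall_notMem]
        intro y hy
        exact absurd (hy.2.trans (hD y)) (not_le.mpr hs)
      simp [this])
    (fun s t l _ _ hs ht hl0 hl1 => sqrt_lev_concave hK hc (hne s hs) (hne t ht) hl0 hl1)
    r hr0 hr1
  simp only [ofReal_toReal_lev hc] at hmain
  rw [lev_zero] at hmain
  have hvol : volume K = ∫⁻ t in Ioi (0 : ℝ), volume (lev K t) := by
    rw [volume_eq_lintegral_fib hc, ← layer_cake hc 0 le_rfl]
    simp
  rw [hvol, volume_inter_cyl hc hB]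
  calc ∫⁻ y in B, ENNReal.ofReal (fib K y)
      ≤ ENNReal.ofReal s0 * volume (B ∩ Prod.fst '' K)
          + ∫⁻ y, ENNReal.ofReal (fib K y - s0) := bathtub hc hB s0 hs0
    _ ≤ ENNReal.ofReal s0 * (ENNReal.ofReal (r ^ 2) * volume (Prod.fst '' K))
          + ∫⁻ t in Ioi s0, volume (lev K t) := by
        rw [layer_cake hc s0 hs0]
        gcongr
    _ ≤ _ := hmain

end Vale.Agent.Lib.P243.Cap
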