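import Mathlib
import Vale.Agent.Lib.P243.Defs
import Vale.Agent.Lib.P243.Bridge
import Vale.Agent.Lib.P243.Cap.CaptureCoord

/-!
P243, capture lemma, step T6: transfer of the capture lemma to Euclidean 3-space.
Choose a linear equivalence `Φ : Space ≃ (ℝ × ℝ) × ℝ` with `(Φ u).1 = 0`; then `transfer_one`
(file `Transfer.lean`) gives `ψ : Plane u ≃ ℝ × ℝ` with `ψ (proj x) = (Φ x).1`; both `Φ` and `ψ` scale
Lebesgue measure by a constant (`exists_scale`), which cancels.  For a non-measurable base pass to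
`toMeasurable volume (B ∩ shadow K u)`.
-/

namespace Vale.Agent.Lib.P243.Cap

open MeasureTheory Set Vale.Agent.Lib.P243

/-- A linear equivalence onto `(ℝ × ℝ) × ℝ` scales Lebesgue measure by a constant. -/
theorem exists_scale3 {S : Type*} [NormedAddCommGroup S] [InnerProductSpace ℝ S]
    [FiniteDimensional ℝ S] [MeasurableSpace S] [BorelSpace S] (ψ : S ≃L[ℝ] (ℝ × ℝ) × ℝ) :
    ∃ c : ENNReal, c ≠ 0 ∧ c ≠ ⊤ ∧ ∀ X : Set S, volume (ψ '' X) = c * volume X := by
  have hHaar : (volume : Measure ((ℝ × ℝ) × ℝ)).IsAddHaarMeasure := by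
    show ((volume : Measure (ℝ × ℝ)).prod (volume : Measure ℝ)).IsAddHaarMeasure
    infer_instance
  set μ' : Measure S := Measure.map ψ.symm volume with hμ'
  have : μ'.IsAddHaarMeasure := ContinuousLinearEquiv.isAddHaarMeasure_map ψ.symm volume
  have h := Measure.isAddLeftInvariant_eq_smul μ' (volume : Measure S)
  refine ⟨(Measure.addHaarScalarFactor μ' (volume : Measure S) : ENNReal), ?_, ENNReal.coe_ne_top, ?_⟩
  · have := Measure.addHaarScalarFactor_pos_of_isAddHaarMeasure μ' (volume : Measure S)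
    exact_mod_cast this.ne'
  · intro X
    have e1 : μ' X = volume (ψ '' X) := by
      rw [hμ']
      have : Measure.map ψ.symm volume X = volume (ψ.symm ⁻¹' X) :=
        ψ.symm.toHomeomorph.toMeasurableEquiv.map_apply X
      rw [this]
      congr 1
      exact (ψ.image_eq_preimage_symm X).symm
    have h2 : μ' X = (Measure.addHaarScalarFactor μ' volume • (volume : Measure S)) X := by
      rw [← h]
    rw [← e1, h2]
    rfl

/-- The capture lemma with the Mathlib formulation of the projection. -/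
theorem capture_proj {K : Set E3} (hK : Convex ℝ K) (hc : IsCompact K) (u : E3) (hu : u ≠ 0)
    (B : Set ↥(ℝ ∙ u)ᗮ) {r : ℝ} (hr0 : 0 ≤ r) (hr1 : r ≤ 1)
    (hBr : volume (B ∩ (ℝ ∙ u)ᗮ.orthogonalProjectionOnto '' K) ≤
      ENNReal.ofReal (r ^ 2) * volume ((ℝ ∙ u)ᗮ.orthogonalProjectionOnto '' K)) :
    volume (K ∩ (ℝ ∙ u)ᗮ.orthogonalProjectionOnto ⁻¹' B) ≤
      ENNReal.ofReal (3 * r ^ 2 - 2 * r ^ 3) * volume K := by
  set π := (ℝ ∙ u)ᗮ.orthogonalProjectionOnto with hπ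
  -- a basis whose last vector is `u`
  have hli1 : LinearIndependent ℝ ![u] := by
    have : LinearIndependent ℝ (fun _ : Fin 1 => u) := LinearIndependent.of_subsingleton 0 hu
    have e : (![u] : Fin 1 → E3) = fun _ => u := by
      funext i; simp
    rw [e]; exact this
  obtain ⟨w₁, hw₁⟩ := exists_linearIndependent_cons_of_lt_finrank hli1 (by simp)
  obtain ⟨w₂, hw₂⟩ := exists_linearIndependent_cons_of_lt_finrank hw₁ (by simp)
  set b := basisOfLinearIndependentOfCardEqFinrank hw₂ (by simp) with hb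
  have hb2 : b 2 = u := by rw [hb, coe_basisOfLinearIndependentOfCardEqFinrank]; rfl
  have hcoord : ∀ i j : Fin 3, b.coord i (b j) = if j = i then 1 else 0 := by
    intro i j
    rw [Module.Basis.coord_apply, Module.Basis.repr_self, Finsupp.single_apply]
  have hexp : ∀ p : E3, p = b.coord 0 p • b 0 + b.coord 1 p • b 1 + b.coord 2 p • b 2 := by
    intro p
    have := b.sum_repr p
    rw [Fin.sum_univ_three] at this
    exact this.symm
  set f : E3 →ₗ[ℝ] ℝ × ℝ := (b.coord 0).prod (b.coord 1) with hf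
  set Φ₀ : E3 →ₗ[ℝ] (ℝ × ℝ) × ℝ := f.prod (b.coord 2) with hΦ₀
  have hinj : Function.Injective Φ₀ := by
    rw [injective_iff_map_eq_zero]
    intro p hp
    have h0 : b.coord 0 p = 0 := congrArg (fun z : (ℝ × ℝ) × ℝ => z.1.1) hp
    have h1 : b.coord 1 p = 0 := congrArg (fun z : (ℝ × ℝ) × ℝ => z.1.2) hp
    have h2 : b.coord 2 p = 0 := congrArg (fun z : (ℝ × ℝ) × ℝ => z.2) hp
    rw [hexp p, h0, h1, h2]
    simp
  set Φ : E3 ≃L[ℝ] (ℝ × ℝ) × ℝ :=
    (LinearMap.linearEquivOfInjective Φ₀ hinj (by simp)).toContinuousLinearEquiv with hΦ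
  have hΦfst : ∀ p, (Φ p).1 = f p := fun p => rfl
  obtain ⟨ψ, hψ⟩ := transfer_one u f
    (by rw [← hb2, hf]; simp [hcoord])
    (by
      intro p hp
      rw [hf] at hp
      have hp1 : b.coord 0 p = 0 := congrArg Prod.fst hp
      have hp2 : b.coord 1 p = 0 := congrArg Prod.snd hp
      rw [hexp p, hp1, hp2, hb2]
      simp only [zero_smul, zero_add]
      exact Submodule.smul_mem _ _ (Submodule.mem_span_singleton_self u))
    (by
      rintro ⟨z1, z2⟩
      refine ⟨z1 • b 0 + z2 • b 1, ?_⟩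
      rw [hf]
      simp)
  obtain ⟨c₂, hc₂0, hc₂t, hc₂⟩ := exists_scale ψ
  obtain ⟨c₃, hc₃0, hc₃t, hc₃⟩ := exists_scale3 Φ
  have him : Prod.fst '' (Φ '' K) = ψ '' (π '' K) := by
    rw [image_image, image_image]
    exact image_congr (fun p _ => by rw [hΦfst, hψ])
  set Bm := toMeasurable volume (B ∩ π '' K) with hBm
  have hmeas : MeasurableSet (ψ '' Bm) :=
    ψ.toHomeomorph.toMeasurableEquiv.measurableSet_image.mpr (measurableSet_toMeasurable _ _)
  have hKc : Convex ℝ (Φ '' K) := hK.linear_image (Φ : E3 →ₗ[ℝ] (ℝ × ℝ) × ℝ)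
  have hmain := capture_coord (K := Φ '' K) hKc (hc.image Φ.continuous) hmeas hr0 hr1 (by
    calc volume (ψ '' Bm ∩ Prod.fst '' (Φ '' K)) ≤ volume (ψ '' Bm) := measure_mono inter_subset_left
      _ = c₂ * volume (B ∩ π '' K) := by rw [hc₂, hBm, measure_toMeasurable]
      _ ≤ c₂ * (ENNReal.ofReal (r ^ 2) * volume (π '' K)) := by gcongr
      _ = ENNReal.ofReal (r ^ 2) * volume (Prod.fst '' (Φ '' K)) := by
          rw [him, hc₂]; ring)
  have hsub : Φ '' (K ∩ π ⁻¹' B) ⊆ Φ '' K ∩ Prod.fst ⁻¹' (ψ '' Bm) := by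
    rintro _ ⟨p, ⟨hpK, hpB⟩, rfl⟩
    refine ⟨mem_image_of_mem _ hpK, ?_⟩
    show (Φ p).1 ∈ ψ '' Bm
    rw [hΦfst, ← hψ]
    exact mem_image_of_mem _ (subset_toMeasurable _ _ ⟨hpB, mem_image_of_mem _ hpK⟩)
  have h1 : c₃ * volume (K ∩ π ⁻¹' B) ≤
      c₃ * (ENNReal.ofReal (3 * r ^ 2 - 2 * r ^ 3) * volume K) := by
    calc c₃ * volume (K ∩ π ⁻¹' B) = volume (Φ '' (K ∩ π ⁻¹' B)) := (hc₃ _).symm
      _ ≤ volume (Φ '' K ∩ Prod.fst ⁻¹' (ψ '' Bm)) := measure_mono hsub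
      _ ≤ ENNReal.ofReal (3 * r ^ 2 - 2 * r ^ 3) * volume (Φ '' K) := hmain
      _ = c₃ * (ENNReal.ofReal (3 * r ^ 2 - 2 * r ^ 3) * volume K) := by rw [hc₃]; ring
  exact (ENNReal.mul_le_mul_iff_right hc₃0 hc₃t).mp h1

theorem capture_space {K : Set Space} (hK : Convex ℝ K) (hc : IsCompact K) (u : Space) (hu : u ≠ 0)
    (B : Set (Plane u)) {r : ℝ} (hr0 : 0 ≤ r) (hr1 : r ≤ 1)
    (hBr : area u (B ∩ shadow K u) ≤ ENNReal.ofReal (r ^ 2) * area u (shadow K u)) :
    volume (K ∩ cylinder u B) ≤ ENNReal.ofReal (3 * r ^ 2 - 2 * r ^ 3) * volume K := by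
  rw [shadow_eq] at hBr
  have h := capture_proj hK hc u hu B hr0 hr1 hBr
  refine le_trans (measure_mono ?_) h
  rintro x ⟨hxK, b, hb, s, rfl⟩
  refine ⟨hxK, ?_⟩
  show (ℝ ∙ u)ᗮ.orthogonalProjectionOnto (b.val + s • u) ∈ B
  have h2 : (ℝ ∙ u)ᗮ.orthogonalProjectionOnto (b.val + s • u) = b := proj_add_smul u b s
  rw [h2]
  exact hb

end Vale.Agent.Lib.P243.Cap
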