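import Mathlib

/-!
P243, step T7a: real arithmetic for `Ψ(b) = 3 b - 2 b^{3/2}`.
-/

namespace Vale.Agent.Lib.P243.Cap

private theorem rpow_three_half {x : ℝ} (hx : 0 ≤ x) : x ^ (3 / 2 : ℝ) = x * √x := by
  rcases eq_or_lt_of_le hx with h | h
  · rw [← h]
    simp
  · rw [Real.sqrt_eq_rpow]
    have : (3 / 2 : ℝ) = 1 + 1 / 2 := by norm_num
    rw [this, Real.rpow_add h, Real.rpow_one]

/-- `Ψ` in the variable `r = √b`. -/
theorem psi_sqrt {b : ℝ} (hb : 0 ≤ b) :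
    3 * (√b) ^ 2 - 2 * (√b) ^ 3 = 3 * b - 2 * b ^ (3 / 2 : ℝ) := by
  rw [rpow_three_half hb]
  have h : (√b) ^ 2 = b := Real.sq_sqrt hb
  have h3 : (√b) ^ 3 = b * √b := by
    rw [pow_succ, h]
  rw [h, h3]

/-- `Ψ` is strictly increasing on `[0,1]`. -/
theorem psi_strictMono {x y : ℝ} (hx : 0 ≤ x) (hxy : x < y) (hy : y ≤ 1) :
    3 * x - 2 * x ^ (3 / 2 : ℝ) < 3 * y - 2 * y ^ (3 / 2 : ℝ) := by
  have hy0 : 0 ≤ y := hx.trans hxy.le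
  rw [← psi_sqrt hx, ← psi_sqrt hy0]
  have hr0 : 0 ≤ √x := Real.sqrt_nonneg x
  have hrs : √x < √y := Real.sqrt_lt_sqrt hx hxy
  have hs1 : √y ≤ 1 := by
    rw [← Real.sqrt_one]
    exact Real.sqrt_le_sqrt hy
  set r := √x
  set s := √y
  have hs0 : 0 ≤ s := hr0.trans hrs.le
  have h1 : s ^ 2 ≤ s := by nlinarith
  have h2 : s * r ≤ r := by nlinarith
  have h3 : r ^ 2 ≤ r := by nlinarith
  have h4 : 0 < 3 * (s + r) - 2 * (s ^ 2 + s * r + r ^ 2) := by nlinarith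
  have h5 : (3 * s ^ 2 - 2 * s ^ 3) - (3 * r ^ 2 - 2 * r ^ 3)
      = (s - r) * (3 * (s + r) - 2 * (s ^ 2 + s * r + r ^ 2)) := by ring
  have h6 : 0 < (s - r) * (3 * (s + r) - 2 * (s ^ 2 + s * r + r ^ 2)) :=
    mul_pos (by linarith) h4
  linarith

/-- Power mean: `(∑ b)^{3/2} ≤ √m ∑ b^{3/2}`. -/
theorem sum_rpow_ge (m : ℕ) (b : Fin m → ℝ) (hb0 : ∀ i, 0 ≤ b i) :
    (∑ i, b i) ^ (3 / 2 : ℝ) ≤ √m * ∑ i, b i ^ (3 / 2 : ℝ) := by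
  have h := Real.rpow_sum_le_const_mul_sum_rpow_of_nonneg (s := Finset.univ) (f := b)
    (p := (3 / 2 : ℝ)) (by norm_num) (fun i _ => hb0 i)
  have h2 : ((Finset.univ : Finset (Fin m)).card : ℝ) ^ ((3 / 2 : ℝ) - 1) = √m := by
    rw [Finset.card_univ, Fintype.card_fin, Real.sqrt_eq_rpow]
    norm_num
  rw [h2] at h
  exact h

private theorem psi_sum_le (m : ℕ) (hm : 0 < m) (b : Fin m → ℝ) (hb0 : ∀ i, 0 ≤ b i) :
    ∑ i, (3 * b i - 2 * b i ^ (3 / 2 : ℝ))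
      ≤ 3 * (∑ i, b i) - 2 * ((∑ i, b i) ^ (3 / 2 : ℝ) / √m) := by
  have h := sum_rpow_ge m b hb0
  have hm' : (0 : ℝ) < √m := Real.sqrt_pos.2 (by exact_mod_cast hm)
  have h1 : (∑ i, b i) ^ (3 / 2 : ℝ) / √m ≤ ∑ i, b i ^ (3 / 2 : ℝ) := by
    rw [div_le_iff₀ hm']
    linarith
  rw [Finset.sum_sub_distrib, ← Finset.mul_sum, ← Finset.mul_sum]
  linarith

/-- Consequence (b): the sharp bound for `m` cylinders. -/
theorem psi_jensen (m : ℕ) (b : Fin m → ℝ) (hb0 : ∀ i, 0 ≤ b i) (hb1 : ∀ i, b i ≤ 1)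
    (h : 1 ≤ ∑ i, (3 * b i - 2 * b i ^ (3 / 2 : ℝ))) (t : ℝ) (ht0 : 0 ≤ t) (ht1 : t ≤ 1)
    (ht : (m : ℝ) * (3 * t - 2 * t ^ (3 / 2 : ℝ)) ≤ 1) :
    (m : ℝ) * t ≤ ∑ i, b i := by
  rcases Nat.eq_zero_or_pos m with hm | hm
  · subst hm
    simp at h
    linarith
  have hmR : (0 : ℝ) < m := by exact_mod_cast hm
  have hsq : (0 : ℝ) < √m := Real.sqrt_pos.2 hmR
  set S := ∑ i, b i with hS
  have hS0 : 0 ≤ S := Finset.sum_nonneg fun i _ => hb0 i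
  have h1 := psi_sum_le m hm b hb0
  by_contra hcon
  rw [not_le] at hcon
  have hlt : S / m < t := by
    rw [div_lt_iff₀ hmR]
    linarith
  have h2 := psi_strictMono (div_nonneg hS0 hmR.le) hlt ht1
  have h3 : (m : ℝ) * (3 * (S / m) - 2 * (S / m) ^ (3 / 2 : ℝ))
      = 3 * S - 2 * (S ^ (3 / 2 : ℝ) / √m) := by
    rw [Real.div_rpow hS0 hmR.le, rpow_three_half hmR.le]
    field_simp
  have h4 : (m : ℝ) * (3 * (S / m) - 2 * (S / m) ^ (3 / 2 : ℝ))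
      < (m : ℝ) * (3 * t - 2 * t ^ (3 / 2 : ℝ)) := mul_lt_mul_of_pos_left h2 hmR
  linarith

/-- Consequence (c): an explicit bound for `m` cylinders. -/
theorem psi_explicit (m : ℕ) (b : Fin m → ℝ) (hb0 : ∀ i, 0 ≤ b i) (hb1 : ∀ i, b i ≤ 1)
    (h : 1 ≤ ∑ i, (3 * b i - 2 * b i ^ (3 / 2 : ℝ))) :
    1 / 3 + 2 / (9 * √(3 * m)) ≤ ∑ i, b i := by
  rcases Nat.eq_zero_or_pos m with hm | hm
  · subst hm
    simp at h
    linarith
  have hmR : (0 : ℝ) < m := by exact_mod_cast hm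
  have hsq : (0 : ℝ) < √m := Real.sqrt_pos.2 hmR
  set S := ∑ i, b i with hS
  have hS0 : 0 ≤ S := Finset.sum_nonneg fun i _ => hb0 i
  have h1 := psi_sum_le m hm b hb0
  have hp0 : 0 ≤ S ^ (3 / 2 : ℝ) / √m := by positivity
  have hS3 : 1 / 3 ≤ S := by linarith
  have h2 : (1 / 3 : ℝ) ^ (3 / 2 : ℝ) ≤ S ^ (3 / 2 : ℝ) :=
    Real.rpow_le_rpow (by norm_num) hS3 (by norm_num)
  have h3 : (1 / 3 : ℝ) ^ (3 / 2 : ℝ) = 1 / (3 * √3) := by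
    rw [rpow_three_half (by norm_num), Real.sqrt_div (by norm_num), Real.sqrt_one]
    field_simp
  have h4 : √(3 * (m : ℝ)) = √3 * √m := Real.sqrt_mul (by norm_num) _
  have h5 : 2 / (9 * √(3 * (m : ℝ))) = 2 / 3 * ((1 / (3 * √3)) / √m) := by
    rw [h4]
    field_simp
    norm_num
  rw [h5]
  have h6 : (1 / (3 * √3)) / √m ≤ S ^ (3 / 2 : ℝ) / √m := by
    rw [← h3]
    exact div_le_div_of_nonneg_right h2 hsq.le
  linarith

end Vale.Agent.Lib.P243.Cap
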