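import Mathlib
import Vale.Agent.Lib.P243.Defs
import Vale.Agent.Lib.P243.Bridge
import Vale.Agent.Lib.P243.Cap.CaptureSpace
import Vale.Agent.Lib.P243.Cap.PsiArith

/-!
P243, step T7b: summing the capture lemma over the cylinders of a covering.
-/

namespace Vale.Agent.Lib.P243.Cap

open MeasureTheory Set Vale.Agent.Lib.P243

/-- With `b i = min 1 (relative base area of the i-th cylinder)`: `∑ (3 b_i - 2 b_i^{3/2}) ≥ 1`. -/
theorem sum_psi {K : Set Space} (hK : Convex ℝ K) (hc : IsCompact K) (hi : (interior K).Nonempty)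
    (m : ℕ) (u : Fin m → Space) (hu : ∀ i, u i ≠ 0) (B : ∀ i, Set (Plane (u i)))
    (hcov : K ⊆ ⋃ i, cylinder (u i) (B i)) :
    1 ≤ ∑ i, (3 * (min 1 (area (u i) (B i) / area (u i) (shadow K (u i)))).toReal -
      2 * (min 1 (area (u i) (B i) / area (u i) (shadow K (u i)))).toReal ^ (3 / 2 : ℝ)) := by
  set β : Fin m → ENNReal := fun i => min 1 (area (u i) (B i) / area (u i) (shadow K (u i))) with hβ
  have hβ1 : ∀ i, β i ≤ 1 := fun i => min_le_left _ _
  have hβtop : ∀ i, β i ≠ ⊤ := fun i => ne_top_of_le_ne_top ENNReal.one_ne_top (hβ1 i)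
  set b : Fin m → ℝ := fun i => (β i).toReal with hb
  have hb0 : ∀ i, 0 ≤ b i := fun i => ENNReal.toReal_nonneg
  have hb1 : ∀ i, b i ≤ 1 := by
    intro i
    have := ENNReal.toReal_mono ENNReal.one_ne_top (hβ1 i)
    simpa using this
  have hr0 : ∀ i, 0 ≤ √(b i) := fun i => Real.sqrt_nonneg _
  have hr1 : ∀ i, √(b i) ≤ 1 := fun i => Real.sqrt_le_one.2 (hb1 i)
  have hcap : ∀ i, volume (K ∩ cylinder (u i) (B i)) ≤
      ENNReal.ofReal (3 * √(b i) ^ 2 - 2 * √(b i) ^ 3) * volume K := by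
    intro i
    apply capture_space hK hc (u i) (hu i) (B i) (hr0 i) (hr1 i)
    rw [Real.sq_sqrt (hb0 i), hb]
    simp only
    rw [ENNReal.ofReal_toReal (hβtop i), hβ]
    simp only
    have hS0 : area (u i) (shadow K (u i)) ≠ 0 := (area_shadow_pos hi (u i)).ne'
    have hST : area (u i) (shadow K (u i)) ≠ ⊤ := area_shadow_ne_top hc (u i)
    rcases le_total 1 (area (u i) (B i) / area (u i) (shadow K (u i))) with h | h
    · rw [min_eq_left h, one_mul]
      exact measure_mono inter_subset_right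
    · rw [min_eq_right h, ENNReal.div_mul_cancel hS0 hST]
      exact measure_mono inter_subset_left
  have hV0 : volume K ≠ 0 := by
    have h1 : 0 < volume (interior K) := isOpen_interior.measure_pos volume hi
    exact (lt_of_lt_of_le h1 (measure_mono interior_subset)).ne'
  have hVT : volume K ≠ ⊤ := hc.measure_lt_top.ne
  have hΨ0 : ∀ i, 0 ≤ 3 * √(b i) ^ 2 - 2 * √(b i) ^ 3 := by
    intro i
    have h0 := hr0 i
    have h1 := hr1 i
    nlinarith [mul_nonneg (sq_nonneg (√(b i))) (by linarith : 0 ≤ 1 - √(b i)), sq_nonneg (√(b i))]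
  have hsum : volume K ≤ ENNReal.ofReal (∑ i, (3 * √(b i) ^ 2 - 2 * √(b i) ^ 3)) * volume K := by
    calc volume K ≤ volume (⋃ i, K ∩ cylinder (u i) (B i)) := by
          apply measure_mono
          intro x hx
          obtain ⟨i, hxi⟩ := mem_iUnion.1 (hcov hx)
          exact mem_iUnion.2 ⟨i, hx, hxi⟩
      _ ≤ ∑ i, volume (K ∩ cylinder (u i) (B i)) := measure_iUnion_fintype_le _ _
      _ ≤ ∑ i, ENNReal.ofReal (3 * √(b i) ^ 2 - 2 * √(b i) ^ 3) * volume K :=
          Finset.sum_le_sum fun i _ => hcap i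
      _ = _ := by
          rw [← Finset.sum_mul, ENNReal.ofReal_sum_of_nonneg fun i _ => hΨ0 i]
  have hone : (1 : ENNReal) ≤ ENNReal.ofReal (∑ i, (3 * √(b i) ^ 2 - 2 * √(b i) ^ 3)) := by
    by_contra hlt
    push Not at hlt
    have := ENNReal.mul_lt_mul_left hV0 hVT hlt
    rw [one_mul] at this
    exact absurd hsum (not_le.2 this)
  have hreal : 1 ≤ ∑ i, (3 * √(b i) ^ 2 - 2 * √(b i) ^ 3) := ENNReal.one_le_ofReal.1 hone
  calc (1 : ℝ) ≤ ∑ i, (3 * √(b i) ^ 2 - 2 * √(b i) ^ 3) := hreal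
    _ = ∑ i, (3 * b i - 2 * b i ^ (3 / 2 : ℝ)) :=
        Finset.sum_congr rfl fun i _ => psi_sqrt (hb0 i)

end Vale.Agent.Lib.P243.Cap
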