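import Mathlib
import Vale.Agent.Lib.P243.Defs
import Vale.Agent.Lib.P243.Cap.SumPsi

/-!
P243: statement of the hand-in `AllCoverings` (to be moved to `Results/P243/AllCoverings.lean`).
-/

namespace Vale.Agent.Lib.P243.Cap

open MeasureTheory Set Vale.Agent.Lib.P243

theorem all_coverings (K : Set Space) (hconv : Convex ℝ K) (hcomp : IsCompact K)
    (hint : (interior K).Nonempty) (m : ℕ) (u : Fin m → Space) (hu : ∀ i, ‖u i‖ = 1)
    (B : ∀ i, Set (Plane (u i))) (hcov : K ⊆ ⋃ i, cylinder (u i) (B i)) :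
    (1 / 3 + 2 / 3 * ∑ i, (min 1 (area (u i) (B i) / area (u i) (shadow K (u i)))) ^ (3 / 2 : ℝ) ≤
      ∑ i, area (u i) (B i) / area (u i) (shadow K (u i))) ∧
    (∀ t : ℝ, 0 ≤ t → t ≤ 1 → (m : ℝ) * (3 * t - 2 * t ^ (3 / 2 : ℝ)) ≤ 1 →
      ENNReal.ofReal (m * t) ≤ ∑ i, area (u i) (B i) / area (u i) (shadow K (u i))) ∧
    (ENNReal.ofReal (1 / 3 + 2 / (9 * √(3 * m))) ≤
      ∑ i, area (u i) (B i) / area (u i) (shadow K (u i))) := by
  have hu0 : ∀ i, u i ≠ 0 := by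
    intro i h0
    have := hu i
    rw [h0, norm_zero] at this
    exact zero_ne_one this
  have hsum := sum_psi hconv hcomp hint m u hu0 B hcov
  set β : Fin m → ENNReal := fun i => area (u i) (B i) / area (u i) (shadow K (u i)) with hβ
  set c : Fin m → ENNReal := fun i => min 1 (β i) with hc
  have hc1 : ∀ i, c i ≤ 1 := fun i => min_le_left _ _
  have hctop : ∀ i, c i ≠ ⊤ := fun i => ne_top_of_le_ne_top ENNReal.one_ne_top (hc1 i)
  set b : Fin m → ℝ := fun i => (c i).toReal with hb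
  have hb0 : ∀ i, 0 ≤ b i := fun i => ENNReal.toReal_nonneg
  have hb1 : ∀ i, b i ≤ 1 := by
    intro i
    have := ENNReal.toReal_mono ENNReal.one_ne_top (hc1 i)
    simpa using this
  have hcb : ∀ i, c i = ENNReal.ofReal (b i) := fun i => (ENNReal.ofReal_toReal (hctop i)).symm
  have hcβ : ∑ i, c i ≤ ∑ i, β i := Finset.sum_le_sum fun i _ => min_le_right _ _
  have hsc : ∑ i, c i = ENNReal.ofReal (∑ i, b i) := by
    rw [ENNReal.ofReal_sum_of_nonneg fun i _ => hb0 i]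
    exact Finset.sum_congr rfl fun i _ => hcb i
  have hsum' : 1 ≤ ∑ i, (3 * b i - 2 * b i ^ (3 / 2 : ℝ)) := hsum
  refine ⟨?_, ?_, ?_⟩
  · refine le_trans ?_ hcβ
    rw [hsc]
    have h13 : (1 / 3 : ENNReal) = ENNReal.ofReal (1 / 3) := by
      rw [ENNReal.ofReal_div_of_pos (by norm_num)]; norm_num
    have h23 : (2 / 3 : ENNReal) = ENNReal.ofReal (2 / 3) := by
      rw [ENNReal.ofReal_div_of_pos (by norm_num)]; norm_num
    have hp0 : ∀ i, 0 ≤ b i ^ (3 / 2 : ℝ) := fun i => Real.rpow_nonneg (hb0 i) _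
    have hpow : ∑ i, c i ^ (3 / 2 : ℝ) = ENNReal.ofReal (∑ i, b i ^ (3 / 2 : ℝ)) := by
      rw [ENNReal.ofReal_sum_of_nonneg fun i _ => hp0 i]
      apply Finset.sum_congr rfl
      intro i _
      rw [hcb i, ENNReal.ofReal_rpow_of_nonneg (hb0 i) (by norm_num)]
    rw [hpow, h13, h23, ← ENNReal.ofReal_mul (by norm_num),
      ← ENNReal.ofReal_add (by norm_num) (mul_nonneg (by norm_num) (Finset.sum_nonneg fun i _ => hp0 i))]
    apply ENNReal.ofReal_le_ofReal
    rw [Finset.sum_sub_distrib, ← Finset.mul_sum, ← Finset.mul_sum] at hsum'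
    linarith
  · intro t ht0 ht1 ht
    refine le_trans ?_ hcβ
    rw [hsc]
    exact ENNReal.ofReal_le_ofReal (psi_jensen m b hb0 hb1 hsum' t ht0 ht1 ht)
  · refine le_trans ?_ hcβ
    rw [hsc]
    exact ENNReal.ofReal_le_ofReal (psi_explicit m b hb0 hb1 hsum')

end Vale.Agent.Lib.P243.Cap
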